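import Vale.Agent.P159.T1.D.H395.PolDer
import Vale.Agent.P159.T1.H395.Cov

/-!
P159 T1, D.LOW: POL.C, the energy of the difference of the rotated field and of the gradient of the
test function.
-/

open Filter Topology MeasureTheory Set

namespace Vale.Agent.P159.T1.D.H395

open Vale.Agent.P159.T1.H395 (lwR strp integral_lwR)

noncomputable section

lemma lwR_cx (z : ℝ × ℝ) : lwR z = (lr z, ar z + Real.pi) := by
  unfold lwR
  rw [lr_eq, ar_eq]
  unfold Vale.Agent.P159.R2.H395.lw cx
  simp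

/-- change of variables with the angle in `(-π, π)` -/
theorem integral_polar (K : ℝ → ℝ → ℝ) :
    ∫ z : ℝ × ℝ, (z.1 ^ 2 + z.2 ^ 2)⁻¹ * K (lr z) (ar z)
      = ∫ w in (univ : Set ℝ) ×ˢ Ioo (-Real.pi) Real.pi, K w.1 w.2 := by
  have h := integral_lwR fun w => K w.1 (w.2 - Real.pi)
  simp only [lwR_cx, add_sub_cancel_right] at h
  rw [h]
  have h1 : MeasurePreserving (fun w : ℝ × ℝ => (w.1, w.2 + Real.pi)) volume volume :=
    (MeasurePreserving.id volume).prod (measurePreserving_add_right volume Real.pi)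
  have h2 : MeasurableEmbedding (fun w : ℝ × ℝ => (w.1, w.2 + Real.pi)) :=
    ((MeasurableEquiv.refl ℝ).prodCongr (MeasurableEquiv.addRight Real.pi)).measurableEmbedding
  rw [← h1.setIntegral_preimage_emb h2]
  have h3 : (fun w : ℝ × ℝ => (w.1, w.2 + Real.pi)) ⁻¹' strp
      = (univ : Set ℝ) ×ˢ Ioo (-Real.pi) Real.pi := by
    ext w
    simp only [strp, mem_preimage, mem_prod, mem_univ, true_and, mem_Ioo]
    constructor <;> rintro ⟨a, b⟩ <;> constructor <;> linarith
  rw [h3]
  simp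

lemma ae_slit : ∀ᵐ z : ℝ × ℝ, cx z ∈ Complex.slitPlane := by
  have h := polarCoord_source_ae_eq_univ
  have h2 : ∀ᵐ z : ℝ × ℝ, z ∈ polarCoord.source := by
    filter_upwards [h] with z hz
    have : (z ∈ polarCoord.source) = (z ∈ (univ : Set (ℝ × ℝ))) := hz
    rw [this]
    trivial
  filter_upwards [h2] with z hz
  rw [polarCoord_source] at hz
  rw [Complex.mem_slitPlane_iff]
  exact hz

/-- pointwise identity -/
lemma dens_eq {Y V : ℝ} {q : ℕ} {Γ u : ℝ → ℝ} (hΓ : ContDiff ℝ 3 Γ) (hu : ContDiff ℝ 2 u)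
    {z : ℝ × ℝ} (hz : cx z ∈ Complex.slitPlane) :
    dens Y V q (fun w => Γ (lr w)) (pol (deriv Γ) u) z = (z.1 ^ 2 + z.2 ^ 2)⁻¹ *
      (deriv Γ (lr z) ^ 2 * (cth Y V q (ar z) - deriv u (ar z)) ^ 2 +
        deriv (deriv Γ) (lr z) ^ 2 * u (ar z) ^ 2) := by
  have h1 := hasFDerivAt_rad (Γ := Γ) hz ((hΓ.differentiable (by simp)) _)
  have hη : ContDiff ℝ 2 (deriv Γ) := by
    have : ContDiff ℝ (2 + 1) Γ := hΓ.of_le (by norm_num)
    exact (contDiff_succ_iff_deriv.1 this).2.2
  have h2 := hasFDerivAt_pol (η := deriv Γ) (u := u) hz ((hη.differentiable (by simp)) _)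
    ((hu.differentiable (by simp)) _)
  have hr : z.1 ^ 2 + z.2 ^ 2 ≠ 0 := by
    rw [← normSq_cx]
    exact (Complex.normSq_pos.2 (Complex.slitPlane_ne_zero hz)).ne'
  unfold dens
  rw [h1.fderiv, h2.fderiv]
  simp only [add_apply, smul_apply, smul_eq_mul, dlr_one,
    dlr_two, dar_one, dar_two]
  field_simp
  ring

lemma measurable_cth (Y V : ℝ) (q : ℕ) : Measurable (cth Y V q) :=
  Measurable.ite measurableSet_Iio measurable_const measurable_const

lemma integrable_sq {f : ℝ → ℝ} (hf : Continuous f) (hc : HasCompactSupport f) :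
    Integrable fun x => f x ^ 2 := by
  have h : (fun x => f x ^ 2) = f * f := by
    funext x
    rw [Pi.mul_apply, sq]
  rw [h]
  exact (hf.mul hf).integrable_of_hasCompactSupport hc.mul_left

theorem stmtPolC : StmtPolC := by
  intro Y V q Γ u hY hV hq hΓ hu hc hs
  have hpi := Real.pi_pos
  have hη : ContDiff ℝ 2 (deriv Γ) := by
    have : ContDiff ℝ (2 + 1) Γ := hΓ.of_le (by norm_num)
    exact (contDiff_succ_iff_deriv.1 this).2.2
  have hη' : Continuous (deriv (deriv Γ)) := hη.continuous_deriv (by simp)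
  have hu' : Continuous (deriv u) := hu.continuous_deriv (by simp)
  have huc : HasCompactSupport u :=
    HasCompactSupport.of_support_subset_isCompact isCompact_Icc
      ((subset_tsupport u).trans (hs.trans Ioo_subset_Icc_self))
  have i1 : IntegrableOn (fun τ => deriv Γ τ ^ 2) univ := by
    rw [integrableOn_univ]
    exact integrable_sq hη.continuous hc
  have i2 : IntegrableOn (fun τ => deriv (deriv Γ) τ ^ 2) univ := by
    rw [integrableOn_univ]
    exact integrable_sq hη' hc.deriv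
  have i3 : IntegrableOn (fun θ => u θ ^ 2) (Ioo (-Real.pi) Real.pi) :=
    (integrable_sq hu.continuous huc).integrableOn
  have i4 : IntegrableOn (fun θ => (cth Y V q θ - deriv u θ) ^ 2) (Ioo (-Real.pi) Real.pi) := by
    obtain ⟨B, hB⟩ := (isCompact_Icc (a := -Real.pi) (b := Real.pi)).exists_bound_of_continuousOn
      hu'.continuousOn
    refine Measure.integrableOn_of_bounded (M := (|V / (Y * ang q)| +
      |V / (Y * (2 * Real.pi - ang q))| + B) ^ 2) (by simp) ?_ ?_
    · exact (((measurable_cth Y V q).sub hu'.measurable).pow_const 2).aestronglyMeasurable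
    · refine (ae_restrict_iff' measurableSet_Ioo).2 (Eventually.of_forall fun θ hθ => ?_)
      have hb := hB θ (Ioo_subset_Icc_self hθ)
      rw [Real.norm_eq_abs] at hb
      rw [Real.norm_eq_abs, abs_pow]
      have h1 : |cth Y V q θ| ≤ |V / (Y * ang q)| + |V / (Y * (2 * Real.pi - ang q))| := by
        unfold cth
        split_ifs
        · linarith [abs_nonneg (V / (Y * (2 * Real.pi - ang q)))]
        · rw [abs_neg]
          linarith [abs_nonneg (V / (Y * ang q))]
      have h2 : |cth Y V q θ - deriv u θ| ≤ |cth Y V q θ| + |deriv u θ| := abs_sub _ _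
      gcongr
      linarith
  have h1 : ∫ z, dens Y V q (fun w => Γ (lr w)) (pol (deriv Γ) u) z
      = ∫ z : ℝ × ℝ, (z.1 ^ 2 + z.2 ^ 2)⁻¹ *
        (deriv Γ (lr z) ^ 2 * (cth Y V q (ar z) - deriv u (ar z)) ^ 2 +
          deriv (deriv Γ) (lr z) ^ 2 * u (ar z) ^ 2) := by
    apply integral_congr_ae
    filter_upwards [ae_slit] with z hz using dens_eq hΓ hu hz
  rw [h1, integral_polar fun τ θ => deriv Γ τ ^ 2 * (cth Y V q θ - deriv u θ) ^ 2 +
    deriv (deriv Γ) τ ^ 2 * u θ ^ 2]
  have j1 : IntegrableOn (fun w : ℝ × ℝ => deriv Γ w.1 ^ 2 * (cth Y V q w.2 - deriv u w.2) ^ 2)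
      ((univ : Set ℝ) ×ˢ Ioo (-Real.pi) Real.pi) := by
    rw [IntegrableOn, Measure.volume_eq_prod, ← Measure.prod_restrict]
    exact Integrable.mul_prod i1 i4
  have j2 : IntegrableOn (fun w : ℝ × ℝ => deriv (deriv Γ) w.1 ^ 2 * u w.2 ^ 2)
      ((univ : Set ℝ) ×ˢ Ioo (-Real.pi) Real.pi) := by
    rw [IntegrableOn, Measure.volume_eq_prod, ← Measure.prod_restrict]
    exact Integrable.mul_prod i2 i3
  rw [integral_add j1 j2, Measure.volume_eq_prod,
    setIntegral_prod_mul (fun τ => deriv Γ τ ^ 2) (fun θ => (cth Y V q θ - deriv u θ) ^ 2),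
    setIntegral_prod_mul (fun τ => deriv (deriv Γ) τ ^ 2) (fun θ => u θ ^ 2), setIntegral_univ,
    setIntegral_univ, intervalIntegral.integral_of_le (by linarith),
    integral_Ioc_eq_integral_Ioo]
  have h3 : ∫ θ in Ioo (-Real.pi) Real.pi, u θ ^ 2 = ∫ θ, u θ ^ 2 := by
    apply setIntegral_eq_integral_of_forall_compl_eq_zero
    intro θ hθ
    have : u θ = 0 := by
      by_contra h
      exact hθ (hs (subset_tsupport u h))
    rw [this]
    norm_num
  rw [h3]

end

end Vale.Agent.P159.T1.D.H395
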