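import Vale.Agent.P159.T1.D.H770.RingDefs

/-!
P159 T1, D.LOW: derivatives of the log-polar coordinates.
-/

open Filter Topology MeasureTheory Set

namespace Vale.Agent.P159.T1.D.H395

noncomputable section

/-- the complex number of a point -/
def cx (z : ℝ × ℝ) : ℂ := ⟨z.1, z.2⟩

lemma lr_eq (z : ℝ × ℝ) : lr z = (Complex.log (cx z)).re := by
  unfold lr cx
  rw [Complex.log_re, Complex.norm_eq_sqrt_sq_add_sq]

lemma ar_eq (z : ℝ × ℝ) : ar z = (Complex.log (cx z)).im := by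
  unfold ar cx
  rw [Complex.log_im]

/-- the derivative of the logarithm -/
def dL (z : ℝ × ℝ) : ℝ × ℝ →L[ℝ] ℂ :=
  ((cx z)⁻¹ • (1 : ℂ →L[ℝ] ℂ)).comp (Complex.equivRealProdCLM.symm : ℝ × ℝ →L[ℝ] ℂ)

lemma hasFDerivAt_log {z : ℝ × ℝ} (hz : cx z ∈ Complex.slitPlane) :
    HasFDerivAt (fun z => Complex.log (cx z)) (dL z) z := by
  have h1 : HasFDerivAt cx (Complex.equivRealProdCLM.symm : ℝ × ℝ →L[ℝ] ℂ) z := by
    have h2 : cx = fun z => (Complex.equivRealProdCLM.symm : ℝ × ℝ →L[ℝ] ℂ) z := by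
      funext z
      apply Complex.ext <;> simp [cx]
    rw [h2]
    exact ContinuousLinearMap.hasFDerivAt _
  exact ((Complex.hasDerivAt_log hz).complexToReal_fderiv).comp z h1

/-- the derivative of `lr` -/
def dlr (z : ℝ × ℝ) : ℝ × ℝ →L[ℝ] ℝ := Complex.reCLM.comp (dL z)

/-- the derivative of `ar` -/
def dar (z : ℝ × ℝ) : ℝ × ℝ →L[ℝ] ℝ := Complex.imCLM.comp (dL z)

theorem hasFDerivAt_lr {z : ℝ × ℝ} (hz : cx z ∈ Complex.slitPlane) :
    HasFDerivAt lr (dlr z) z := by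
  have h : lr = fun z => Complex.reCLM (Complex.log (cx z)) := funext lr_eq
  rw [h]
  exact (Complex.reCLM.hasFDerivAt).comp z (hasFDerivAt_log hz)

theorem hasFDerivAt_ar {z : ℝ × ℝ} (hz : cx z ∈ Complex.slitPlane) :
    HasFDerivAt ar (dar z) z := by
  have h : ar = fun z => Complex.imCLM (Complex.log (cx z)) := funext ar_eq
  rw [h]
  exact (Complex.imCLM.hasFDerivAt).comp z (hasFDerivAt_log hz)

lemma normSq_cx (z : ℝ × ℝ) : Complex.normSq (cx z) = z.1 ^ 2 + z.2 ^ 2 := by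
  rw [Complex.normSq_apply, cx]
  ring

lemma dlr_one (z : ℝ × ℝ) : dlr z (1, 0) = z.1 / (z.1 ^ 2 + z.2 ^ 2) := by
  simp [dlr, dL, Complex.inv_re, cx, sq]

lemma dlr_two (z : ℝ × ℝ) : dlr z (0, 1) = z.2 / (z.1 ^ 2 + z.2 ^ 2) := by
  simp [dlr, dL, Complex.inv_im, cx, neg_div, sq]

lemma dar_one (z : ℝ × ℝ) : dar z (1, 0) = -z.2 / (z.1 ^ 2 + z.2 ^ 2) := by
  simp [dar, dL, Complex.inv_im, cx, sq]

lemma dar_two (z : ℝ × ℝ) : dar z (0, 1) = z.1 / (z.1 ^ 2 + z.2 ^ 2) := by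
  simp [dar, dL, Complex.inv_re, cx, sq]

/-- the derivative of a function of the radius -/
theorem hasFDerivAt_rad {Γ : ℝ → ℝ} {z : ℝ × ℝ} (hz : cx z ∈ Complex.slitPlane)
    (hΓ : DifferentiableAt ℝ Γ (lr z)) :
    HasFDerivAt (fun z => Γ (lr z)) (deriv Γ (lr z) • dlr z) z :=
  hΓ.hasDerivAt.comp_hasFDerivAt z (hasFDerivAt_lr hz)

/-- the derivative of `pol` -/
theorem hasFDerivAt_pol {η u : ℝ → ℝ} {z : ℝ × ℝ} (hz : cx z ∈ Complex.slitPlane)
    (hη : DifferentiableAt ℝ η (lr z)) (hu : DifferentiableAt ℝ u (ar z)) :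
    HasFDerivAt (pol η u) (η (lr z) • (deriv u (ar z) • dar z) +
      u (ar z) • (deriv η (lr z) • dlr z)) z :=
  (hη.hasDerivAt.comp_hasFDerivAt z (hasFDerivAt_lr hz)).mul
    (hu.hasDerivAt.comp_hasFDerivAt z (hasFDerivAt_ar hz))

end

end Vale.Agent.P159.T1.D.H395
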